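import Vale.Agent.P372.H740.Api

/-!
Reduction of the target inequality to a linear inequality for corners of positive definite
product operators.
-/

open Matrix Kronecker Filter Topology
open scoped ComplexOrder MatrixOrder

namespace Vale.Agent.P372.H740

/-! ### real numbers -/

theorem sq_le_of_lin {F A B : ℝ} (hF : 0 ≤ F) (hA : 0 ≤ A) (hB : 0 ≤ B)
    (h : ∀ μ : ℝ, 4 * μ * F - 2 * μ ^ 2 * A ≤ B / 2) : 4 * F ^ 2 ≤ A * B := by
  rcases hA.eq_or_lt with h0 | h0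
  · subst h0
    have hF0 : F = 0 := by
      by_contra hne
      have hp : 0 < F := lt_of_le_of_ne hF (Ne.symm hne)
      have h1 := h ((B + 1) / F)
      have h2 : (B + 1) / F * F = B + 1 := by field_simp
      nlinarith
    rw [hF0]
    simp
  · have h1 := h (F / A)
    have h2 : 4 * (F / A) * F - 2 * (F / A) ^ 2 * A = 2 * F ^ 2 / A := by
      field_simp
      ring
    rw [h2, div_le_iff₀ h0] at h1
    nlinarith

theorem opt_step {a b : ℝ} (ha : 0 < a) (hb : 0 < b) :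
    ∃ s : ℝ, 0 < s ∧ s * a + b / s = 2 * √(a * b) := by
  refine ⟨√(a * b) / a, div_pos (Real.sqrt_pos.mpr (mul_pos ha hb)) ha, ?_⟩
  have hs : 0 < √(a * b) := Real.sqrt_pos.mpr (mul_pos ha hb)
  have h1 : √(a * b) * √(a * b) = a * b := Real.mul_self_sqrt (mul_pos ha hb).le
  field_simp
  nlinarith

theorem four_le_of_scale {F a b c d : ℝ} (ha : 0 ≤ a) (hb : 0 ≤ b) (hc : 0 ≤ c)
    (hd : 0 ≤ d)
    (h : ∀ s t : ℝ, 0 < s → 0 < t → 4 * F ^ 2 ≤ (s * a + b / s) * (t * c + d / t)) :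
    F ^ 4 ≤ a * b * c * d := by
  have key : ∀ ε : ℝ, 0 < ε → F ^ 4 ≤ (a + ε) * (b + ε) * (c + ε) * (d + ε) := by
    intro ε hε
    have ha' : 0 < a + ε := by linarith
    have hb' : 0 < b + ε := by linarith
    have hc' : 0 < c + ε := by linarith
    have hd' : 0 < d + ε := by linarith
    obtain ⟨s, hs, hs1⟩ := opt_step ha' hb'
    obtain ⟨t, ht, ht1⟩ := opt_step hc' hd'
    have h1 := h s t hs ht
    have h2 : s * a + b / s ≤ 2 * √((a + ε) * (b + ε)) := by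
      rw [← hs1]
      refine add_le_add (mul_le_mul_of_nonneg_left (by linarith) hs.le) ?_
      exact div_le_div_of_nonneg_right (by linarith) hs.le
    have h3 : t * c + d / t ≤ 2 * √((c + ε) * (d + ε)) := by
      rw [← ht1]
      refine add_le_add (mul_le_mul_of_nonneg_left (by linarith) ht.le) ?_
      exact div_le_div_of_nonneg_right (by linarith) ht.le
    have h4 : 0 ≤ t * c + d / t := add_nonneg (mul_nonneg ht.le hc) (div_nonneg hd ht.le)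
    have h5 : 4 * F ^ 2 ≤ (2 * √((a + ε) * (b + ε))) * (2 * √((c + ε) * (d + ε))) :=
      h1.trans (mul_le_mul h2 h3 h4 (by positivity))
    have h6 : F ^ 2 ≤ √((a + ε) * (b + ε)) * √((c + ε) * (d + ε)) := by linarith
    have h7 : (F ^ 2) ^ 2 ≤ (√((a + ε) * (b + ε)) * √((c + ε) * (d + ε))) ^ 2 :=
      pow_le_pow_left₀ (sq_nonneg F) h6 2
    rw [mul_pow, Real.sq_sqrt (mul_pos ha' hb').le, Real.sq_sqrt (mul_pos hc' hd').le] at h7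
    calc F ^ 4 = (F ^ 2) ^ 2 := by ring
      _ ≤ _ := h7
      _ = _ := by ring
  have hcont : Tendsto (fun ε : ℝ => (a + ε) * (b + ε) * (c + ε) * (d + ε)) (𝓝[>] 0)
      (𝓝 ((a + 0) * (b + 0) * (c + 0) * (d + 0))) := by
    refine Tendsto.mono_left ?_ nhdsWithin_le_nhds
    exact (Continuous.tendsto (by fun_prop) 0)
  simp only [add_zero] at hcont
  exact ge_of_tendsto hcont (eventually_nhdsWithin_of_forall fun ε hε => key ε hε)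

/-! ### one operator -/

section one

variable {A B : Type} [Fintype A] [DecidableEq A] [Fintype B] [DecidableEq B]

/-- The test fails for `Q` as soon as the linear inequality holds for all filters. -/
theorem four_of_lin {Q : Matrix (A × B) (A × B) ℂ} (hQ : Q.PosSemidef)
    (h : ∀ (X₀ X₁ : Matrix A A ℂ) (Y₀ Y₁ : Matrix B B ℂ) (μ : ℝ),
      4 * μ * traceNorm ((X₀ ⊗ₖ Y₀) * Q * (X₁ ⊗ₖ Y₁)ᴴ) -
        2 * μ ^ 2 * (weight Q X₀ Y₀ + weight Q X₁ Y₁) ≤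
          (weight Q X₀ Y₁ + weight Q X₁ Y₀) / 2)
    (X₀ X₁ : Matrix A A ℂ) (Y₀ Y₁ : Matrix B B ℂ) :
    traceNorm ((X₀ ⊗ₖ Y₀) * Q * (X₁ ⊗ₖ Y₁)ᴴ) ^ 4 ≤
      weight Q X₀ Y₀ * weight Q X₀ Y₁ * weight Q X₁ Y₀ * weight Q X₁ Y₁ := by
  have hw := fun X Y => Near.weight_nonneg hQ X Y
  have h1 : ∀ (X₀ X₁ : Matrix A A ℂ) (Y₀ Y₁ : Matrix B B ℂ),
      4 * traceNorm ((X₀ ⊗ₖ Y₀) * Q * (X₁ ⊗ₖ Y₁)ᴴ) ^ 2 ≤
        (weight Q X₀ Y₀ + weight Q X₁ Y₁) * (weight Q X₀ Y₁ + weight Q X₁ Y₀) :=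
    fun X₀ X₁ Y₀ Y₁ => sq_le_of_lin (traceNorm_nonneg _) (add_nonneg (hw _ _) (hw _ _))
      (add_nonneg (hw _ _) (hw _ _)) (h X₀ X₁ Y₀ Y₁)
  have h2 := four_le_of_scale (F := traceNorm ((X₀ ⊗ₖ Y₀) * Q * (X₁ ⊗ₖ Y₁)ᴴ))
    (hw X₀ Y₀) (hw X₁ Y₁) (hw X₀ Y₁) (hw X₁ Y₀) ?_
  · refine h2.trans (le_of_eq ?_)
    ring
  · intro s t hs ht
    have hp : 0 < √s := Real.sqrt_pos.mpr hs
    have hq : 0 < √t := Real.sqrt_pos.mpr ht
    have hps : √s ^ 2 = s := Real.sq_sqrt hs.le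
    have hqt : √t ^ 2 = t := Real.sq_sqrt ht.le
    have h3 := h1 (((1 : ℝ) : ℂ) • X₀) ((((√s * √t)⁻¹ : ℝ) : ℂ) • X₁) (((√s : ℝ) : ℂ) • Y₀)
      (((√t : ℝ) : ℂ) • Y₁)
    rw [Near.traceNorm_smul_four Q zero_le_one (by positivity) hp.le hq.le] at h3
    simp only [Near.weight_smul_smul] at h3
    have e1 : 1 * √s * ((√s * √t)⁻¹ * √t) = 1 := by field_simp
    have e2 : (1 * √s) ^ 2 = s := by rw [one_mul, hps]
    have e3 : (1 * √t) ^ 2 = t := by rw [one_mul, hqt]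
    have e4 : ((√s * √t)⁻¹ * √t) ^ 2 = s⁻¹ := by
      have : (√s * √t)⁻¹ * √t = (√s)⁻¹ := by field_simp
      rw [this, inv_pow, hps]
    have e5 : ((√s * √t)⁻¹ * √s) ^ 2 = t⁻¹ := by
      have : (√s * √t)⁻¹ * √s = (√t)⁻¹ := by field_simp
      rw [this, inv_pow, hqt]
    rw [e1, e2, e3, e4, e5, one_mul] at h3
    refine h3.trans (le_of_eq ?_)
    ring

/-! ### corners -/

theorem contr_corner {I : Type} [Fintype I] [DecidableEq I] {W : Matrix I I ℂ} (hW : Contr W)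
    (P Q : Matrix I I ℂ) :
    (fromBlocks (Qᴴ * Q) (Qᴴ * W * P) (Qᴴ * W * P)ᴴ (Pᴴ * P)).PosSemidef := by
  have h1 : (fromBlocks (1 : Matrix I I ℂ) W Wᴴ 1).PosSemidef := by
    have h2 : (fromBlocks (1 : Matrix I I ℂ) W Wᴴ 1) =
        (fromBlocks (1 : Matrix I I ℂ) W 0 0)ᴴ * (fromBlocks (1 : Matrix I I ℂ) W 0 0) +
          fromBlocks 0 0 0 (1 - Wᴴ * W) := by
      rw [fromBlocks_conjTranspose, fromBlocks_multiply, fromBlocks_add]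
      simp only [conjTranspose_one, conjTranspose_zero, Matrix.zero_mul, Matrix.mul_zero, add_zero,
        Matrix.one_mul, Matrix.mul_one, add_sub_cancel]
    rw [h2]
    refine (posSemidef_conjTranspose_mul_self _).add ?_
    obtain ⟨R, hR⟩ := exists_eq_conjTranspose_mul_self hW.2
    have h3 : fromBlocks (0 : Matrix I I ℂ) 0 0 (1 - Wᴴ * W) =
        (fromBlocks (0 : Matrix I I ℂ) 0 0 R)ᴴ * (fromBlocks (0 : Matrix I I ℂ) 0 0 R) := by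
      rw [fromBlocks_conjTranspose, fromBlocks_multiply, hR]
      simp only [conjTranspose_zero, Matrix.zero_mul, Matrix.mul_zero, add_zero, zero_add]
    rw [h3]
    exact posSemidef_conjTranspose_mul_self _
  have h4 := h1.conjTranspose_mul_mul_same (fromBlocks Q 0 0 P)
  have h5 : (fromBlocks Q 0 0 P)ᴴ * fromBlocks (1 : Matrix I I ℂ) W Wᴴ 1 * fromBlocks Q 0 0 P =
      fromBlocks (Qᴴ * Q) (Qᴴ * W * P) (Qᴴ * W * P)ᴴ (Pᴴ * P) := by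
    rw [fromBlocks_conjTranspose, fromBlocks_multiply, fromBlocks_multiply]
    simp only [conjTranspose_zero, Matrix.zero_mul, Matrix.mul_zero, add_zero, zero_add,
      Matrix.mul_one, conjTranspose_mul, conjTranspose_conjTranspose, Matrix.mul_assoc]
  rwa [h5] at h4

/-- The linear inequality for corners of positive definite product operators. -/
def CornerLin (Q : Matrix (A × B) (A × B) ℂ) : Prop :=
  ∀ (a₀ a₁ : Matrix A A ℂ) (b₀ b₁ : Matrix B B ℂ) (C : Matrix (A × B) (A × B) ℂ) (μ : ℝ),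
    a₀.PosDef → a₁.PosDef → b₀.PosDef → b₁.PosDef →
    (fromBlocks (a₀ ⊗ₖ b₀) C Cᴴ (a₁ ⊗ₖ b₁)).PosSemidef →
    4 * μ * (Q * C).trace.re -
        2 * μ ^ 2 * ((Q * (a₀ ⊗ₖ b₀)).trace.re + (Q * (a₁ ⊗ₖ b₁)).trace.re) ≤
      ((Q * (a₀ ⊗ₖ b₁)).trace.re + (Q * (a₁ ⊗ₖ b₀)).trace.re) / 2

theorem posDef_of_isUnit {I : Type} [Fintype I] [DecidableEq I] {X : Matrix I I ℂ}
    (hX : IsUnit X) : (Xᴴ * X).PosDef :=
  Matrix.PosDef.conjTranspose_mul_self X (Matrix.mulVec_injective_of_isUnit hX)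

theorem lin_of_corner_isUnit {Q : Matrix (A × B) (A × B) ℂ} (h : CornerLin Q)
    (X₀ X₁ : Matrix A A ℂ) (Y₀ Y₁ : Matrix B B ℂ) (μ : ℝ) (hX₀ : IsUnit X₀) (hX₁ : IsUnit X₁)
    (hY₀ : IsUnit Y₀) (hY₁ : IsUnit Y₁) :
    4 * μ * traceNorm ((X₀ ⊗ₖ Y₀) * Q * (X₁ ⊗ₖ Y₁)ᴴ) -
      2 * μ ^ 2 * (weight Q X₀ Y₀ + weight Q X₁ Y₁) ≤
        (weight Q X₀ Y₁ + weight Q X₁ Y₀) / 2 := by
  obtain ⟨W, hW, hW1⟩ := traceNorm_exists ((X₀ ⊗ₖ Y₀) * Q * (X₁ ⊗ₖ Y₁)ᴴ)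
  have h1 := contr_corner hW (X₀ ⊗ₖ Y₀) (X₁ ⊗ₖ Y₁)
  have e : ∀ (X : Matrix A A ℂ) (Y : Matrix B B ℂ),
      (X ⊗ₖ Y)ᴴ * (X ⊗ₖ Y) = (Xᴴ * X) ⊗ₖ (Yᴴ * Y) := fun X Y => by
    rw [conjTranspose_kronecker, ← mul_kronecker_mul]
  rw [e, e] at h1
  have h2 := h _ _ _ _ _ μ (posDef_of_isUnit hX₁) (posDef_of_isUnit hX₀) (posDef_of_isUnit hY₁)
    (posDef_of_isUnit hY₀) h1
  have h3 : (Q * ((X₁ ⊗ₖ Y₁)ᴴ * W * (X₀ ⊗ₖ Y₀))).trace.re =
      traceNorm ((X₀ ⊗ₖ Y₀) * Q * (X₁ ⊗ₖ Y₁)ᴴ) := by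
    have h4 : (Q * ((X₁ ⊗ₖ Y₁)ᴴ * W * (X₀ ⊗ₖ Y₀))).trace =
        (W * ((X₀ ⊗ₖ Y₀) * Q * (X₁ ⊗ₖ Y₁)ᴴ)).trace := by
      rw [← Matrix.mul_assoc, trace_mul_comm, trace_mul_comm W]
      simp only [Matrix.mul_assoc]
    rw [h4, hW1, Complex.ofReal_re]
  rw [h3] at h2
  simp only [Near.weight_eq_trace]
  linarith

theorem eventually_isUnit_add (X : Matrix A A ℂ) :
    ∀ᶠ ε : ℝ in 𝓝[≠] 0, IsUnit (X + (ε : ℂ) • (1 : Matrix A A ℂ)) := by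
  have hfin : {ε : ℝ | ((-X).charpoly).eval (ε : ℂ) = 0}.Finite := by
    have h1 : {z : ℂ | ((-X).charpoly).eval z = 0}.Finite := by
      refine ((-X).charpoly.rootSet_finite ℂ).subset fun z hz => ?_
      rw [Polynomial.mem_rootSet]
      exact ⟨(Matrix.charpoly_monic (-X)).ne_zero, by simpa using hz⟩
    exact h1.preimage (Complex.ofReal_injective.injOn)
  have h2 : ∀ᶠ ε : ℝ in 𝓝[≠] 0, ε ∉ {ε : ℝ | ((-X).charpoly).eval (ε : ℂ) = 0} := by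
    have h3 : (({ε : ℝ | ((-X).charpoly).eval (ε : ℂ) = 0} \ {0})ᶜ) ∈ 𝓝 (0 : ℝ) :=
      (hfin.subset Set.sdiff_subset).isClosed.isOpen_compl.mem_nhds (by simp)
    filter_upwards [mem_nhdsWithin_of_mem_nhds h3, self_mem_nhdsWithin] with ε h4 h5 h6
    exact h4 ⟨h6, h5⟩
  filter_upwards [h2] with ε hε
  rw [Matrix.isUnit_iff_isUnit_det, isUnit_iff_ne_zero]
  intro h0
  apply hε
  rw [Matrix.eval_charpoly, ← h0]
  congr 1
  rw [sub_neg_eq_add, add_comm, Matrix.scalar_apply, Matrix.smul_one_eq_diagonal]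

theorem lin_of_corner {Q : Matrix (A × B) (A × B) ℂ} (h : CornerLin Q)
    (X₀ X₁ : Matrix A A ℂ) (Y₀ Y₁ : Matrix B B ℂ) (μ : ℝ) :
    4 * μ * traceNorm ((X₀ ⊗ₖ Y₀) * Q * (X₁ ⊗ₖ Y₁)ᴴ) -
      2 * μ ^ 2 * (weight Q X₀ Y₀ + weight Q X₁ Y₁) ≤
        (weight Q X₀ Y₁ + weight Q X₁ Y₀) / 2 := by
  have hev := ((eventually_isUnit_add X₀).and (eventually_isUnit_add X₁)).and
    ((eventually_isUnit_add Y₀).and (eventually_isUnit_add Y₁))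
  have cA : ∀ X : Matrix A A ℂ, Continuous fun ε : ℝ => X + (ε : ℂ) • (1 : Matrix A A ℂ) :=
    fun X => continuous_const.add (Complex.continuous_ofReal.smul continuous_const)
  have cB : ∀ X : Matrix B B ℂ, Continuous fun ε : ℝ => X + (ε : ℂ) • (1 : Matrix B B ℂ) :=
    fun X => continuous_const.add (Complex.continuous_ofReal.smul continuous_const)
  have cK : ∀ (X : Matrix A A ℂ) (Y : Matrix B B ℂ),
      Continuous fun ε : ℝ => (X + (ε : ℂ) • (1 : Matrix A A ℂ)) ⊗ₖ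
        (Y + (ε : ℂ) • (1 : Matrix B B ℂ)) := fun X Y => by
    refine continuous_matrix fun p q => ?_
    exact ((cA X).matrix_elem _ _).mul ((cB Y).matrix_elem _ _)
  have cN : ∀ (X X' : Matrix A A ℂ) (Y Y' : Matrix B B ℂ),
      Continuous fun ε : ℝ => ((X + (ε : ℂ) • (1 : Matrix A A ℂ)) ⊗ₖ
        (Y + (ε : ℂ) • (1 : Matrix B B ℂ))) * Q *
        ((X' + (ε : ℂ) • (1 : Matrix A A ℂ)) ⊗ₖ (Y' + (ε : ℂ) • (1 : Matrix B B ℂ)))ᴴ :=
    fun X X' Y Y' => ((cK X Y).matrix_mul continuous_const).matrix_mul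
      (cK X' Y').matrix_conjTranspose
  have cW : ∀ (X : Matrix A A ℂ) (Y : Matrix B B ℂ),
      Continuous fun ε : ℝ => weight Q (X + (ε : ℂ) • (1 : Matrix A A ℂ))
        (Y + (ε : ℂ) • (1 : Matrix B B ℂ)) := fun X Y =>
    Complex.continuous_re.comp (cN X X Y Y).matrix_trace
  have cL : Continuous fun ε : ℝ =>
      4 * μ * traceNorm (((X₀ + (ε : ℂ) • (1 : Matrix A A ℂ)) ⊗ₖ
        (Y₀ + (ε : ℂ) • (1 : Matrix B B ℂ))) * Q *
        ((X₁ + (ε : ℂ) • (1 : Matrix A A ℂ)) ⊗ₖ (Y₁ + (ε : ℂ) • (1 : Matrix B B ℂ)))ᴴ) -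
      2 * μ ^ 2 * (weight Q (X₀ + (ε : ℂ) • (1 : Matrix A A ℂ)) (Y₀ + (ε : ℂ) • (1 : Matrix B B ℂ)) +
        weight Q (X₁ + (ε : ℂ) • (1 : Matrix A A ℂ)) (Y₁ + (ε : ℂ) • (1 : Matrix B B ℂ))) :=
    (continuous_const.mul (continuous_traceNorm.comp (cN X₀ X₁ Y₀ Y₁))).sub
      (continuous_const.mul ((cW X₀ Y₀).add (cW X₁ Y₁)))
  have cR : Continuous fun ε : ℝ =>
      (weight Q (X₀ + (ε : ℂ) • (1 : Matrix A A ℂ)) (Y₁ + (ε : ℂ) • (1 : Matrix B B ℂ)) +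
        weight Q (X₁ + (ε : ℂ) • (1 : Matrix A A ℂ)) (Y₀ + (ε : ℂ) • (1 : Matrix B B ℂ))) / 2 :=
    ((cW X₀ Y₁).add (cW X₁ Y₀)).div_const 2
  have tL := (cL.tendsto 0).mono_left (nhdsWithin_le_nhds (s := {0}ᶜ))
  have tR := (cR.tendsto 0).mono_left (nhdsWithin_le_nhds (s := {0}ᶜ))
  have h5 := le_of_tendsto_of_tendsto tL tR (by
    filter_upwards [hev] with ε hε
    exact lin_of_corner_isUnit h _ _ _ _ μ hε.1.1 hε.1.2 hε.2.1 hε.2.2)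
  simpa only [Complex.ofReal_zero, zero_smul, add_zero] using h5

/-- The corner inequality for `Q` excludes the test for `Q`. -/
theorem four_of_corner {Q : Matrix (A × B) (A × B) ℂ} (hQ : Q.PosSemidef) (h : CornerLin Q)
    (X₀ X₁ : Matrix A A ℂ) (Y₀ Y₁ : Matrix B B ℂ) :
    traceNorm ((X₀ ⊗ₖ Y₀) * Q * (X₁ ⊗ₖ Y₁)ᴴ) ^ 4 ≤
      weight Q X₀ Y₀ * weight Q X₀ Y₁ * weight Q X₁ Y₀ * weight Q X₁ Y₁ :=
  four_of_lin hQ (fun X₀ X₁ Y₀ Y₁ μ => lin_of_corner h X₀ X₁ Y₀ Y₁ μ) X₀ X₁ Y₀ Y₁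

end one

/-- From the linear corner inequality for all numbers of copies to the target inequality. -/
theorem noTest_of_corner {A B : Type} [Fintype A] [DecidableEq A] [Fintype B] [DecidableEq B]
    {R : Matrix (A × B) (A × B) ℂ} (hR : ∀ n, (tpow n R).PosSemidef)
    (h : ∀ n, CornerLin (tpow n R)) : NoTest R :=
  fun n X₀ X₁ Y₀ Y₁ => four_of_corner (hR n) (h n) X₀ X₁ Y₀ Y₁

end Vale.Agent.P372.H740
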