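import Vale.Agent.P372.Bdl.B1

/-!
From the inequality `traceNorm ((X₀ ⊗ Y₀) R^n (X₁ ⊗ Y₁)ᴴ) ^ 4 ≤ w₀₀ w₀₁ w₁₀ w₁₁` for all `n` and all
local operators to `distillableKey = 0` for the normalised state.
-/

open Matrix Kronecker Filter Topology
open scoped ComplexOrder MatrixOrder

namespace Vale.Agent.P372.H740

variable {A B E : Type} [Fintype A] [DecidableEq A] [Fintype B] [DecidableEq B]
  [Fintype E] [DecidableEq E]

/-- The target inequality: no number of copies of `R` passes the test. -/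
def NoTest (R : Matrix (A × B) (A × B) ℂ) : Prop :=
  ∀ (n : ℕ) (X₀ X₁ : Matrix (Fin n → A) (Fin n → A) ℂ) (Y₀ Y₁ : Matrix (Fin n → B) (Fin n → B) ℂ),
    traceNorm ((X₀ ⊗ₖ Y₀) * tpow n R * (X₁ ⊗ₖ Y₁)ᴴ) ^ 4 ≤
      weight (tpow n R) X₀ Y₀ * weight (tpow n R) X₀ Y₁ * weight (tpow n R) X₁ Y₀ *
        weight (tpow n R) X₁ Y₁

/-- The distillable key of a state is nonnegative. -/
theorem key_nonneg (Ψ : Matrix (A × B) E ℂ) (hΨ : (Ψ * Ψᴴ).trace = 1) : 0 ≤ distillableKey Ψ := by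
  apply le_sSup
  refine ⟨fun _ => 0, fun _ => 0, fun n => ?_, tendsto_const_nhds, ?_⟩
  · refine ⟨Unit, inferInstance, fun _ _ => 1, fun _ _ => 1, ?_, ?_⟩
    · exact LOCC.output (fun _ => 1) (fun _ => 1) (fun _ => PosSemidef.one) (by simp)
        (fun _ => PosSemidef.one) (by simp)
    · refine ⟨fun _ => eve (copies n Ψ) 1 1,
        fun _ => eve_posSemidef _ PosSemidef.one PosSemidef.one, ?_, ?_⟩
      · simp [trace_eve_one, trace_copies n Ψ hΨ]
      · simp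
  · simp

omit [Fintype A] [DecidableEq A] [Fintype B] [DecidableEq B] in
theorem tpow_smul (n : ℕ) (c : ℝ) (R : Matrix (A × B) (A × B) ℂ) :
    tpow n ((c : ℂ) • R) = (((c ^ n : ℝ)) : ℂ) • tpow n R := by
  ext p q
  simp [tpow, Finset.prod_mul_distrib]

theorem NoTest.smul {R : Matrix (A × B) (A × B) ℂ} (h : NoTest R) {c : ℝ} (hc : 0 ≤ c) :
    NoTest ((c : ℂ) • R) := by
  intro n X₀ X₁ Y₀ Y₁
  have hcn : 0 ≤ c ^ n := pow_nonneg hc n
  rw [tpow_smul]
  simp only [Near.weight_smul]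
  rw [Matrix.mul_smul, Matrix.smul_mul, traceNorm_smul, Complex.norm_real,
    Real.norm_of_nonneg hcn, mul_pow]
  have h1 := mul_le_mul_of_nonneg_left (h n X₀ X₁ Y₀ Y₁) (pow_nonneg hcn 4)
  refine h1.trans (le_of_eq ?_)
  ring

theorem NoTest.not_keyTest {R : Matrix (A × B) (A × B) ℂ} (h : NoTest R) :
    ¬ ∃ n, KeyTest (tpow n R) Set.univ := by
  rintro ⟨n, X₀, -, X₁, -, Y₀, Y₁, h1⟩
  exact absurd (h n X₀ X₁ Y₀ Y₁) (not_le.mpr h1)

/-- No key can be distilled from a state which passes no test. -/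
theorem NoTest.key_zero {R : Matrix (A × B) (A × B) ℂ} (h : NoTest R) {c : ℝ} (hc : 0 ≤ c)
    (Ψ : Matrix (A × B) E ℂ) (hΨ : Ψ * Ψᴴ = (c : ℂ) • R) (h1 : (Ψ * Ψᴴ).trace = 1) :
    distillableKey Ψ = 0 := by
  refine le_antisymm (not_lt.mp fun h2 => ?_) (key_nonneg Ψ h1)
  have h3 := (keyPos_iff A B E Ψ h1).mp h2
  rw [hΨ] at h3
  exact (h.smul hc).not_keyTest h3

/-- From an entangled positive semidefinite operator which passes no test to an entangled state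
without distillable key. -/
theorem NoTest.exists_state {R : Matrix (A × B) (A × B) ℂ} (h : NoTest R) (hR : R.PosSemidef)
    (hs : ¬ IsSep R) :
    ∃ ρ : Matrix (A × B) (A × B) ℂ, ρ.PosSemidef ∧ ρ.trace = 1 ∧ ¬ IsSep ρ ∧
      ∀ (E : Type) [Fintype E] [DecidableEq E] (Ψ : Matrix (A × B) E ℂ), Ψ * Ψᴴ = ρ →
        distillableKey Ψ = 0 := by
  have ht0 : (0 : ℝ) ≤ R.trace.re := (Complex.le_def.mp hR.trace_nonneg).1
  have him : R.trace = (R.trace.re : ℂ) := by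
    refine Complex.ext rfl ?_
    rw [Complex.ofReal_im]
    exact (Complex.le_def.mp hR.trace_nonneg).2.symm
  have ht : R.trace.re ≠ 0 := by
    intro h0
    have h2 : R = 0 := by
      rw [← hR.trace_eq_zero_iff, him, h0, Complex.ofReal_zero]
    refine hs ⟨0, fun _ => 0, fun _ => 0, fun k => k.elim0, fun k => k.elim0, ?_⟩
    rw [h2]
    simp
  have hc : (0 : ℝ) ≤ (R.trace.re)⁻¹ := inv_nonneg.mpr ht0
  have htr : ((((R.trace.re)⁻¹ : ℝ) : ℂ) • R).trace = 1 := by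
    rw [trace_smul, smul_eq_mul, him, Complex.ofReal_re, ← Complex.ofReal_mul, inv_mul_cancel₀ ht,
      Complex.ofReal_one]
  refine ⟨(((R.trace.re)⁻¹ : ℝ) : ℂ) • R, hR.smul (by exact_mod_cast hc), htr, fun h2 => ?_, ?_⟩
  · apply hs
    have h3 := IsSep.smul' ht0 h2
    rwa [smul_smul, ← Complex.ofReal_mul, mul_inv_cancel₀ ht, Complex.ofReal_one, one_smul] at h3
  · intro E _ _ Ψ hΨ
    exact h.key_zero hc Ψ hΨ (by rw [hΨ]; exact htr)

end Vale.Agent.P372.H740
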