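import Vale.Agent.P372.H740.Km

/-!
From two noises with the strong flip property and a bounded operator to an entangled state without
distillable key.
-/

open Matrix Kronecker
open scoped ComplexOrder MatrixOrder

namespace Vale.Agent.P372.H740

open H897 (Ker ap kt Choi SF)

variable {A B : Type} [Fintype A] [DecidableEq A] [Fintype B] [DecidableEq B]

/-- Given noises `tA`, `tB` (strong flip, unital, self-dual) and `0 ≤ V ≤ 2`, if the operator
`2/3 + 1/3 (tA ⊗ tB)(V)` is not separable then there is an entangled state with zero distillable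
key. -/
theorem full {tA : Ker A} {tB : Ker B} (hA : SF tA) (hB : SF tB) (uA : ap tA 1 = 1)
    (uB : ap tB 1 = 1) (dA : SD tA) (dB : SD tB) {V : Matrix (A × B) (A × B) ℂ}
    (hV : V.PosSemidef) (hV2 : ((2 : ℂ) • 1 - V).PosSemidef)
    (hs : ¬ IsSep ((2 / 3 : ℂ) • 1 + (1 / 3 : ℂ) • ap (kt tA tB) V)) :
    ∃ ρ : Matrix (A × B) (A × B) ℂ, ρ.PosSemidef ∧ ρ.trace = 1 ∧ ¬ IsSep ρ ∧
      ∀ (E : Type) [Fintype E] [DecidableEq E] (Ψ : Matrix (A × B) E ℂ), Ψ * Ψᴴ = ρ →
        distillableKey Ψ = 0 := by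
  have h23 : (0 : ℂ) ≤ 2 / 3 := by
    have h1 : (((2 / 3 : ℝ)) : ℂ) = 2 / 3 := by push_cast; rfl
    rw [← h1]
    exact_mod_cast (by norm_num : (0 : ℝ) ≤ 2 / 3)
  have h13 : (0 : ℂ) ≤ 1 / 3 := by
    have h1 : (((1 / 3 : ℝ)) : ℂ) = 1 / 3 := by push_cast; rfl
    rw [← h1]
    exact_mod_cast (by norm_num : (0 : ℝ) ≤ 1 / 3)
  have hne : V ≠ 0 := by
    intro h0
    refine hs ⟨1, fun _ => 1, fun _ => (2 / 3 : ℂ) • 1, fun _ => PosSemidef.one,
      fun _ => PosSemidef.one.smul h23, ?_⟩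
    have h1 : ap (kt tA tB) (0 : Matrix (A × B) (A × B) ℂ) = 0 := by
      have := ap_smul (kt tA tB) 0 (0 : Matrix (A × B) (A × B) ℂ)
      simpa only [zero_smul] using this
    rw [h0, h1, smul_zero, add_zero, Finset.univ_unique, Finset.sum_singleton, kronecker_smul,
      one_kronecker_one]
  have hT : SF (kt tA tB) := hA.kt hB
  have hR : ((2 / 3 : ℂ) • 1 + (1 / 3 : ℂ) • ap (kt tA tB) V).PosSemidef :=
    (PosSemidef.one.smul h23).add ((H897.ap_psd hT.choi hV).smul h13)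
  exact NoTest.exists_state (noTest_of_corner (fun n => bm_psd fun _ => hR)
    (km hA hB uA uB dA dB hV hV2 hne)) hR hs

end Vale.Agent.P372.H740
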