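import Vale.Agent.P372.Bdl.B1
import Vale.Agent.P372.H405.Corner
import Vale.Agent.P372.H897.SF

/-!
Superoperators with product kernels on `(Fin n → A) × (Fin n → B)`, one kernel for every site.
-/

open Matrix Kronecker
open scoped ComplexOrder MatrixOrder

set_option linter.unusedSectionVars false

namespace Vale.Agent.P372.H740

open H897 (Ker ap kt Choi SF)

section gen

variable {a b : Type} [Fintype a] [DecidableEq a] [Fintype b] [DecidableEq b]

theorem ap_add (t : Ker a) (X Y : Matrix a a ℂ) : ap t (X + Y) = ap t X + ap t Y := by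
  ext i j
  simp only [ap, Matrix.add_apply, add_mul, Finset.sum_add_distrib]

theorem ap_smul (t : Ker a) (c : ℂ) (X : Matrix a a ℂ) : ap t (c • X) = c • ap t X := by
  ext i j
  simp only [ap, Matrix.smul_apply, smul_eq_mul, Finset.mul_sum, mul_assoc]

theorem ap_sum_ker {ι : Type} (s : Finset ι) (t : ι → Ker a) (X : Matrix a a ℂ) :
    ap (∑ x ∈ s, t x) X = ∑ x ∈ s, ap (t x) X := by
  ext i j
  simp only [ap, Finset.sum_apply, Matrix.sum_apply, Finset.mul_sum]
  rw [Finset.sum_comm (s := s)]
  refine Finset.sum_congr rfl fun p _ => ?_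
  rw [Finset.sum_comm (s := s)]

/-- The linear map of a kernel. -/
def apL (t : Ker a) : Matrix a a ℂ →ₗ[ℂ] Matrix a a ℂ where
  toFun := ap t
  map_add' := ap_add t
  map_smul' := ap_smul t

/-- The dual map. -/
def dl (t : Ker a) (M : Matrix a a ℂ) : Matrix a a ℂ := fun q p => ∑ i, ∑ j, M j i * t p q i j

theorem trace_mul_ap (t : Ker a) (M X : Matrix a a ℂ) :
    (M * ap t X).trace = (dl t M * X).trace := by
  simp only [Matrix.trace, Matrix.diag_apply, Matrix.mul_apply, ap, dl, Finset.mul_sum,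
    Finset.sum_mul]
  calc (∑ j, ∑ i, ∑ p, ∑ q, M j i * (X p q * t p q i j))
      = ∑ j, ∑ p, ∑ i, ∑ q, M j i * (X p q * t p q i j) :=
        Finset.sum_congr rfl fun _ _ => Finset.sum_comm
    _ = ∑ j, ∑ p, ∑ q, ∑ i, M j i * (X p q * t p q i j) :=
        Finset.sum_congr rfl fun _ _ => Finset.sum_congr rfl fun _ _ => Finset.sum_comm
    _ = ∑ p, ∑ j, ∑ q, ∑ i, M j i * (X p q * t p q i j) := Finset.sum_comm
    _ = ∑ p, ∑ q, ∑ j, ∑ i, M j i * (X p q * t p q i j) :=
        Finset.sum_congr rfl fun _ _ => Finset.sum_comm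
    _ = ∑ q, ∑ p, ∑ j, ∑ i, M j i * (X p q * t p q i j) := Finset.sum_comm
    _ = ∑ q, ∑ p, ∑ i, ∑ j, M j i * (X p q * t p q i j) :=
        Finset.sum_congr rfl fun _ _ => Finset.sum_congr rfl fun _ _ => Finset.sum_comm
    _ = _ := by
        refine Finset.sum_congr rfl fun q _ => Finset.sum_congr rfl fun p _ =>
          Finset.sum_congr rfl fun i _ => Finset.sum_congr rfl fun j _ => ?_
        ring

/-- A self-dual kernel. -/
def SD (t : Ker a) : Prop := ∀ p q i j, t p q i j = t j i q p

theorem SD.dl {t : Ker a} (h : SD t) (M : Matrix a a ℂ) : dl t M = ap t M := by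
  ext q p
  simp only [H740.dl, ap]
  rw [Finset.sum_comm]
  refine Finset.sum_congr rfl fun j _ => Finset.sum_congr rfl fun i _ => ?_
  rw [h p q i j]

theorem choi_star {t : Ker a} (h : (Choi t).PosSemidef) (p q i j : a) :
    star (t q p j i) = t p q i j := by
  have h1 := congrFun (congrFun h.isHermitian.eq (p, i)) (q, j)
  simpa only [conjTranspose_apply, Choi] using h1

theorem ap_conjTranspose {t : Ker a} (h : (Choi t).PosSemidef) (X : Matrix a a ℂ) :
    ap t Xᴴ = (ap t X)ᴴ := by
  ext i j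
  simp only [ap, conjTranspose_apply, star_sum, star_mul']
  rw [Finset.sum_comm]
  refine Finset.sum_congr rfl fun p _ => Finset.sum_congr rfl fun q _ => ?_
  rw [choi_star h]

/-- The map of a kernel with the strong flip property is a flip. -/
theorem isFlip_ap {t : Ker a} (h : SF t) (h1 : ap t 1 = 1) (hd : SD t) : H405.IsFlip (apL t) where
  trace X := by
    have h2 := trace_mul_ap t 1 X
    rw [hd.dl, h1, Matrix.one_mul, Matrix.one_mul] at h2
    exact h2
  one := h1
  herm X := ap_conjTranspose h.choi X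
  dual X Y := by
    change (ap t X * Y).trace = (X * ap t Y).trace
    rw [trace_mul_comm, trace_mul_ap, hd.dl, trace_mul_comm]
  block X C Y hb := by
    have h2 := H897.ap_blocks h.choi hb
    rw [ap_conjTranspose h.choi] at h2
    exact h2
  co Y := h.coSchwarz Y

/-- Composition of kernels: first `l`, then `k`. -/
def cmp (k l : Ker a) : Ker a := fun p q i j => ∑ u, ∑ v, l p q u v * k u v i j

theorem ap_cmp (k l : Ker a) (X : Matrix a a ℂ) : ap (cmp k l) X = ap k (ap l X) := by
  ext i j
  simp only [ap, cmp, Finset.mul_sum, Finset.sum_mul]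
  calc (∑ p, ∑ q, ∑ u, ∑ v, X p q * (l p q u v * k u v i j))
      = ∑ p, ∑ u, ∑ q, ∑ v, X p q * (l p q u v * k u v i j) :=
        Finset.sum_congr rfl fun _ _ => Finset.sum_comm
    _ = ∑ p, ∑ u, ∑ v, ∑ q, X p q * (l p q u v * k u v i j) :=
        Finset.sum_congr rfl fun _ _ => Finset.sum_congr rfl fun _ _ => Finset.sum_comm
    _ = ∑ u, ∑ p, ∑ v, ∑ q, X p q * (l p q u v * k u v i j) := Finset.sum_comm
    _ = ∑ u, ∑ v, ∑ p, ∑ q, X p q * (l p q u v * k u v i j) :=
        Finset.sum_congr rfl fun _ _ => Finset.sum_comm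
    _ = _ := by
        refine Finset.sum_congr rfl fun u _ => Finset.sum_congr rfl fun v _ =>
          Finset.sum_congr rfl fun p _ => Finset.sum_congr rfl fun q _ => ?_
        ring

theorem ap_kt (k : Ker a) (l : Ker b) (X : Matrix a a ℂ) (Y : Matrix b b ℂ) :
    ap (kt k l) (X ⊗ₖ Y) = ap k X ⊗ₖ ap l Y := by
  ext i j
  simp only [ap, kt, kroneckerMap_apply, Fintype.sum_prod_type, Finset.sum_mul_sum]
  refine Finset.sum_congr rfl fun p _ => ?_
  calc (∑ p', ∑ q, ∑ q', X p q * Y p' q' * (k p q i.1 j.1 * l p' q' i.2 j.2))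
      = ∑ p', ∑ q, ∑ q', X p q * k p q i.1 j.1 * (Y p' q' * l p' q' i.2 j.2) := by
        refine Finset.sum_congr rfl fun _ _ => Finset.sum_congr rfl fun _ _ =>
          Finset.sum_congr rfl fun _ _ => ?_
        ring
    _ = _ := rfl

theorem choi_kt {k : Ker a} {l : Ker b} (hk : (Choi k).PosSemidef) (hl : (Choi l).PosSemidef) :
    (Choi (kt k l)).PosSemidef := by
  have h1 := (hk.kronecker hl).submatrix
    (fun u : (a × b) × (a × b) => ((u.1.1, u.2.1), (u.1.2, u.2.2)))
  exact h1

/-! ### one site -/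

/-- The identity. -/
def idk : Ker a := fun p q i j => if p = i ∧ q = j then 1 else 0

/-- `X ↦ tr (V X) 1 / d`. -/
noncomputable def ek (V : Matrix a a ℂ) : Ker a :=
  fun p q i j => V q p * (if i = j then ((Fintype.card a : ℂ))⁻¹ else 0)

theorem ap_idk (X : Matrix a a ℂ) : ap idk X = X := by
  ext i j
  simp only [ap, idk]
  rw [Finset.sum_eq_single i, Finset.sum_eq_single j]
  · simp
  · intro q _ hq
    simp [hq]
  · simp
  · intro p _ hp
    refine Finset.sum_eq_zero fun q _ => ?_
    simp [hp]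
  · simp

theorem cmp_idk_left (k : Ker a) : cmp idk k = k := by
  funext p q i j
  simp only [cmp, idk]
  rw [Finset.sum_eq_single i, Finset.sum_eq_single j]
  · simp
  · intro q _ hq
    simp [hq]
  · simp
  · intro p _ hp
    refine Finset.sum_eq_zero fun q _ => ?_
    simp [hp]
  · simp

theorem cmp_idk_right (k : Ker a) : cmp k idk = k := by
  funext p q i j
  simp only [cmp, idk]
  rw [Finset.sum_eq_single p, Finset.sum_eq_single q]
  · simp
  · intro q' _ hq
    simp [Ne.symm hq]
  · simp
  · intro p' _ hp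
    refine Finset.sum_eq_zero fun q _ => ?_
    simp [Ne.symm hp]
  · simp

theorem dl_idk (M : Matrix a a ℂ) : dl idk M = M := by
  ext q p
  simp only [dl, idk]
  rw [Finset.sum_eq_single p, Finset.sum_eq_single q]
  · simp
  · intro q' _ hq
    simp [Ne.symm hq]
  · simp
  · intro p' _ hp
    refine Finset.sum_eq_zero fun q _ => ?_
    simp [Ne.symm hp]
  · simp

theorem dl_ek (V M : Matrix a a ℂ) : dl (ek V) M = (M.trace * ((Fintype.card a : ℂ))⁻¹) • V := by
  ext q p
  simp only [dl, ek, Matrix.smul_apply, smul_eq_mul, Matrix.trace, Matrix.diag_apply,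
    Finset.sum_mul]
  refine Finset.sum_congr rfl fun i _ => ?_
  rw [Finset.sum_eq_single i]
  · simp only [if_true]
    ring
  · intro j _ hj
    simp [Ne.symm hj]
  · simp

/-- First the noise, then the reset with weight `V`. -/
theorem cmp_ek_left {t : Ker a} (hd : SD t) (V : Matrix a a ℂ) : cmp (ek V) t = ek (ap t V) := by
  funext p q i j
  simp only [cmp, ek, ap, Finset.sum_mul]
  rw [Finset.sum_comm]
  refine Finset.sum_congr rfl fun v _ => Finset.sum_congr rfl fun u _ => ?_
  rw [hd p q u v]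
  ring

/-- First the reset, then the noise. -/
theorem cmp_ek_right {t : Ker a} (h1 : ap t 1 = 1) (V : Matrix a a ℂ) : cmp t (ek V) = ek V := by
  funext p q i j
  have h2 := congrFun (congrFun h1 i) j
  simp only [ap, Matrix.one_apply] at h2
  simp only [cmp, ek]
  have h3 : ∀ u, (∑ v, V q p * (if u = v then ((Fintype.card a : ℂ))⁻¹ else 0) * t u v i j) =
      V q p * ((Fintype.card a : ℂ))⁻¹ * ∑ v, (if u = v then 1 else 0) * t u v i j := by
    intro u
    rw [Finset.mul_sum]
    refine Finset.sum_congr rfl fun v _ => ?_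
    split_ifs <;> ring
  simp only [h3, ← Finset.mul_sum, h2]
  split_ifs <;> ring

theorem choi_idk : (Choi (idk : Ker a)).PosSemidef := by
  have h1 := posSemidef_vecMulVec_self_star (fun u : a × a => if u.1 = u.2 then (1 : ℂ) else 0)
  have h2 : Choi (idk : Ker a) = vecMulVec (fun u : a × a => if u.1 = u.2 then (1 : ℂ) else 0)
      (star fun u : a × a => if u.1 = u.2 then (1 : ℂ) else 0) := by
    ext u v
    simp only [Choi, idk, vecMulVec_apply, Pi.star_apply]
    by_cases h : u.1 = u.2 <;> by_cases h' : v.1 = v.2 <;> simp [h, h']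
  rw [h2]
  exact h1

theorem choi_ek {V : Matrix a a ℂ} (hV : V.PosSemidef) : (Choi (ek V)).PosSemidef := by
  have h1 : (0 : ℂ) ≤ ((Fintype.card a : ℂ))⁻¹ := by
    have : (0 : ℝ) ≤ ((Fintype.card a : ℝ))⁻¹ := by positivity
    have h2 : ((((Fintype.card a : ℝ))⁻¹ : ℝ) : ℂ) = ((Fintype.card a : ℂ))⁻¹ := by push_cast; rfl
    rw [← h2]
    exact_mod_cast this
  have h3 := hV.transpose.kronecker
    ((PosSemidef.one (n := a) (R := ℂ)).smul h1)
  have h4 : Choi (ek V) = (Vᵀ ⊗ₖ (((Fintype.card a : ℂ))⁻¹ • (1 : Matrix a a ℂ))) := by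
    ext u v
    simp only [Choi, ek, kroneckerMap_apply, transpose_apply, Matrix.smul_apply, smul_eq_mul,
      Matrix.one_apply]
    split_ifs <;> ring
  rw [h4]
  exact h3

theorem choi_zero : (Choi (0 : Ker a)).PosSemidef := by
  have : Choi (0 : Ker a) = 0 := by
    ext u v
    rfl
  rw [this]
  exact PosSemidef.zero

theorem choi_smul {k : Ker a} (h : (Choi k).PosSemidef) {c : ℂ} (hc : 0 ≤ c) :
    (Choi (c • k)).PosSemidef := by
  have : Choi (c • k) = c • Choi k := by
    ext u v
    rfl
  rw [this]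
  exact h.smul hc

end gen

end Vale.Agent.P372.H740
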