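import Vale.Agent.P372.H740.Site
import Vale.Agent.P372.H740.Scale
import Vale.Agent.P372.Swap.Core

/-!
The linear corner inequality for `R^n`, `R = 2/3 + 1/3 T(V)`, `0 ≤ V ≤ 2`, `T` a product of two
noises with the strong flip property.
-/

open Matrix Kronecker
open scoped ComplexOrder MatrixOrder

set_option linter.unusedSectionVars false

namespace Vale.Agent.P372.H740

open H897 (Ker ap kt Choi SF)

section site

variable {a b : Type} [Fintype a] [DecidableEq a] [Fintype b] [DecidableEq b]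

/-- The weights of the two labels. -/
noncomputable def cw : Bool → ℝ := fun t => if t then 1 / 3 else 2 / 3

/-- Reset with weight `V`, or nothing. -/
noncomputable def act (V : Matrix a a ℂ) : Bool → Ker a := fun u => if u then ek V else idk

/-- Nothing, or reset. -/
noncomputable def dep : Bool → Ker a := fun t => if t then idk else ek 1

/-- The weight operator. -/
def wt (V : Matrix a a ℂ) : Bool → Matrix a a ℂ := fun t => if t then V else 1

/-- The completely positive maps of the closed form. -/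
noncomputable def mk (V : Matrix a a ℂ) : Bool → Bool → Ker a := fun t u =>
  if t then (if u then 0 else idk)
  else (if u then (1 / 2 : ℂ) • idk else (1 / 2 : ℂ) • ek ((2 : ℂ) • 1 - V))

theorem cw_nonneg (t : Bool) : 0 ≤ cw t := by
  cases t <;> norm_num [cw]

theorem cmp_smul_left (c : ℂ) (k l : Ker a) : cmp (c • k) l = c • cmp k l := by
  funext p q i j
  simp only [cmp, Pi.smul_apply, smul_eq_mul, Finset.mul_sum]
  refine Finset.sum_congr rfl fun u _ => Finset.sum_congr rfl fun v _ => ?_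
  ring

theorem cmp_zero_left (l : Ker a) : cmp (0 : Ker a) l = 0 := by
  funext p q i j
  simp [cmp]

theorem dl_smul_ker (c : ℂ) (k : Ker a) (M : Matrix a a ℂ) : dl (c • k) M = c • dl k M := by
  ext q p
  simp only [dl, Pi.smul_apply, smul_eq_mul, Matrix.smul_apply, Finset.mul_sum]
  refine Finset.sum_congr rfl fun u _ => Finset.sum_congr rfl fun v _ => ?_
  ring

theorem dl_zero_ker (M : Matrix a a ℂ) : dl (0 : Ker a) M = 0 := by
  ext q p
  simp [dl]

theorem ek_half (V : Matrix a a ℂ) :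
    (1 / 2 : ℂ) • ek V + (1 / 2 : ℂ) • ek ((2 : ℂ) • 1 - V) = ek (1 : Matrix a a ℂ) := by
  funext p q i j
  simp only [ek, Pi.add_apply, Pi.smul_apply, smul_eq_mul, Matrix.sub_apply, Matrix.smul_apply]
  ring

theorem ap_ek (V X : Matrix a a ℂ) :
    ap (ek V) X = ((V * X).trace * ((Fintype.card a : ℂ))⁻¹) • 1 := by
  ext i j
  simp only [ap, ek, Matrix.smul_apply, smul_eq_mul, Matrix.trace, Matrix.diag_apply,
    Matrix.mul_apply, Matrix.one_apply, Finset.sum_mul]
  rw [Finset.sum_comm]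
  refine Finset.sum_congr rfl fun q _ => Finset.sum_congr rfl fun p _ => ?_
  split_ifs <;> ring

theorem trace_one_mul_inv [Nonempty a] :
    (1 : Matrix a a ℂ).trace * ((Fintype.card a : ℂ))⁻¹ = 1 := by
  rw [trace_one]
  exact mul_inv_cancel₀ (by exact_mod_cast Fintype.card_ne_zero)

theorem key_site (V : Matrix a a ℂ) (t : Bool) :
    ∑ u : Bool, cmp (mk V t u) (act V u) = dep t := by
  rw [Fintype.sum_bool]
  cases t
  · simp only [mk, act, dep, if_true, if_false, Bool.false_eq_true, cmp_smul_left, cmp_idk_left,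
      cmp_idk_right]
    exact ek_half V
  · simp only [mk, act, dep, if_true, if_false, Bool.false_eq_true, cmp_zero_left, cmp_idk_left,
      zero_add]

theorem val_site [Nonempty a] (V : Matrix a a ℂ) (u : Bool) :
    ∑ t : Bool, (cw t : ℂ) • dl (mk V t u) (wt V t) = (cw u : ℂ) • (1 : Matrix a a ℂ) := by
  rw [Fintype.sum_bool]
  cases u
  · simp only [mk, wt, cw, if_true, if_false, Bool.false_eq_true, dl_smul_ker, dl_idk, dl_ek,
      trace_one_mul_inv, one_smul]
    push_cast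
    module
  · simp only [mk, wt, cw, if_true, if_false, Bool.false_eq_true, dl_smul_ker, dl_idk,
      dl_zero_ker]
    push_cast
    module

theorem w_site [Nonempty a] (G : Matrix a a ℂ) :
    ∑ u : Bool, (cw u : ℂ) • dl (act G u) 1 = (2 / 3 : ℂ) • 1 + (1 / 3 : ℂ) • G := by
  rw [Fintype.sum_bool]
  simp only [act, cw, if_true, if_false, Bool.false_eq_true, dl_idk, dl_ek, trace_one_mul_inv,
    one_smul]
  push_cast
  module

theorem n_site [Nonempty a] {T : Ker a} (hd : SD T) (h1 : ap T 1 = 1) (V : Matrix a a ℂ) :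
    ∑ t : Bool, (cw t : ℂ) • dl (cmp (dep t) T) (wt V t) =
      (2 / 3 : ℂ) • 1 + (1 / 3 : ℂ) • ap T V := by
  rw [Fintype.sum_bool]
  simp only [dep, wt, cw, if_true, if_false, Bool.false_eq_true, cmp_idk_left, cmp_ek_left hd, h1,
    hd.dl, dl_ek, trace_one_mul_inv, one_smul]
  push_cast
  module

theorem comm_site {T : Ker a} (hd : SD T) (h1 : ap T 1 = 1) (V : Matrix a a ℂ) (u : Bool) :
    cmp T (act (ap T V) u) = cmp (act V u) T := by
  cases u
  · simp only [act, Bool.false_eq_true, if_false, cmp_idk_left, cmp_idk_right]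
  · simp only [act, if_true, cmp_ek_left hd, cmp_ek_right h1]

theorem choi_act {V : Matrix a a ℂ} (hV : V.PosSemidef) (u : Bool) :
    (Choi (act V u)).PosSemidef := by
  cases u
  · exact choi_idk
  · exact choi_ek hV

theorem choi_dep (t : Bool) : (Choi (dep t : Ker a)).PosSemidef := by
  cases t
  · exact choi_ek PosSemidef.one
  · exact choi_idk

theorem choi_mk {V : Matrix a a ℂ} (hV2 : ((2 : ℂ) • 1 - V).PosSemidef) (t u : Bool) :
    (Choi (mk V t u)).PosSemidef := by
  have h : (0 : ℂ) ≤ 1 / 2 := by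
    have h1 : (0 : ℝ) ≤ 1 / 2 := by norm_num
    have h2 : (((1 / 2 : ℝ)) : ℂ) = 1 / 2 := by push_cast; rfl
    rw [← h2]
    exact_mod_cast h1
  cases t <;> cases u
  · exact choi_smul (choi_ek hV2) h
  · exact choi_smul choi_idk h
  · exact choi_idk
  · exact choi_zero

theorem wt_psd {V : Matrix a a ℂ} (hV : V.PosSemidef) (t : Bool) : (wt V t).PosSemidef := by
  cases t
  · exact PosSemidef.one
  · exact hV

theorem kt_dep (t : Bool) : kt (dep t : Ker a) (dep t : Ker b) = dep t := by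
  cases t
  · funext p q i j
    simp only [kt, dep, ek, Bool.false_eq_true, if_false, Fintype.card_prod, Nat.cast_mul, mul_inv,
      Matrix.one_apply, Prod.ext_iff]
    by_cases h1 : q.1 = p.1 <;> by_cases h2 : q.2 = p.2 <;> by_cases h3 : i.1 = j.1 <;>
      by_cases h4 : i.2 = j.2 <;> simp [h1, h2, h3, h4]
  · funext p q i j
    simp only [kt, dep, idk, if_true, Prod.ext_iff]
    by_cases h1 : p.1 = i.1 <;> by_cases h2 : p.2 = i.2 <;> by_cases h3 : q.1 = j.1 <;>
      by_cases h4 : q.2 = j.2 <;> simp [h1, h2, h3, h4]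

theorem fromBlocks_sum {ι : Type} (s : Finset ι) (X Z Z' Y : ι → Matrix a a ℂ) :
    fromBlocks (∑ x ∈ s, X x) (∑ x ∈ s, Z x) (∑ x ∈ s, Z' x) (∑ x ∈ s, Y x) =
      ∑ x ∈ s, fromBlocks (X x) (Z x) (Z' x) (Y x) := by
  ext (i | i) (j | j) <;> simp [Matrix.sum_apply]

end site

section main

variable {A B : Type} [Fintype A] [DecidableEq A] [Fintype B] [DecidableEq B] {n : ℕ}

theorem wsum (M : Fin n → Bool → Matrix (A × B) (A × B) ℂ)
    (X : Matrix ((Fin n → A) × (Fin n → B)) ((Fin n → A) × (Fin n → B)) ℂ) :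
    ∑ t : Fin n → Bool, (∏ s, cw (t s)) * (bm (fun s => M s (t s)) * X).trace.re =
      (bm (fun s => ∑ x, (cw x : ℂ) • M s x) * X).trace.re := by
  rw [← sum_bm, Matrix.sum_mul, trace_sum, Complex.re_sum]
  refine Finset.sum_congr rfl fun t _ => ?_
  rw [bm_smul, Matrix.smul_mul, trace_smul, smul_eq_mul, ← Complex.ofReal_prod,
    Complex.re_ofReal_mul]

theorem unital_kt {tA : Ker A} {tB : Ker B} (uA : ap tA 1 = 1) (uB : ap tB 1 = 1) :
    ap (kt tA tB) 1 = 1 := by
  rw [← one_kronecker_one, ap_kt, uA, uB]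

theorem sd_kt {tA : Ker A} {tB : Ker B} (dA : SD tA) (dB : SD tB) : SD (kt tA tB) := by
  intro p q i j
  simp only [kt]
  rw [dA p.1 q.1 i.1 j.1, dB p.2 q.2 i.2 j.2]

/-- The linear corner inequality for all numbers of copies. -/
theorem km {tA : Ker A} {tB : Ker B} (hA : SF tA) (hB : SF tB) (uA : ap tA 1 = 1)
    (uB : ap tB 1 = 1) (dA : SD tA) (dB : SD tB) {V : Matrix (A × B) (A × B) ℂ}
    (hV : V.PosSemidef) (hV2 : ((2 : ℂ) • 1 - V).PosSemidef) (hne : V ≠ 0) (n : ℕ) :
    CornerLin (tpow n ((2 / 3 : ℂ) • 1 + (1 / 3 : ℂ) • ap (kt tA tB) V)) := by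
  have hnon : Nonempty (A × B) := by
    by_contra hc
    rw [not_nonempty_iff] at hc
    exact hne (Matrix.ext fun i _ => (hc.false i).elim)
  have hT : SF (kt tA tB) := hA.kt hB
  have uT : ap (kt tA tB) 1 = 1 := unital_kt uA uB
  have dT : SD (kt tA tB) := sd_kt dA dB
  obtain ⟨T, hTd⟩ : ∃ T, T = kt tA tB := ⟨_, rfl⟩
  rw [← hTd] at hT uT dT ⊢
  obtain ⟨G, hGd⟩ : ∃ G, G = ap T V := ⟨_, rfl⟩
  have hG : G.PosSemidef := hGd ▸ H897.ap_psd hT.choi hV
  have hTn' : kt (pkd fun _ : Fin n => tA) (pkd fun _ : Fin n => tB) = bk fun _ => T := by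
    rw [kt_pkd, hTd]
  have hTn : SF (bk fun _ : Fin n => T) := by
    rw [← hTn']
    exact (hA.pk (ι := Fin n)).kt (hB.pk (ι := Fin n))
  have uTn : ap (bk fun _ : Fin n => T) 1 = 1 := by
    rw [← bm_one, ap_bk]
    simp only [uT]
  have dTn : SD (bk fun _ : Fin n => T) := fun p q i j =>
    Finset.prod_congr rfl fun s _ => dT _ _ _ _
  have hS := isFlip_ap hTn uTn dTn
  -- the trace of `G`
  have hGtr : 0 < G.trace.re := by
    have h1 : G.trace = V.trace := by
      rw [hGd]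
      exact (isFlip_ap hT uT dT).trace V
    rw [h1]
    refine lt_of_le_of_ne (Complex.le_def.mp hV.trace_nonneg).1 fun h2 => hne ?_
    rw [← hV.trace_eq_zero_iff]
    exact Complex.ext h2.symm (Complex.le_def.mp hV.trace_nonneg).2.symm
  intro a₀ a₁ b₀ b₁ C μ ha₀ ha₁ hb₀ hb₁ hC
  rw [← hGd]
  -- START
  have step1 : ∀ U : Fin n → Bool, ∃ Z, Z.IsHermitian ∧
      (fromBlocks (ap (bk fun _ => T) (ap (bk fun s => act G (U s)) (a₀ ⊗ₖ b₀))) Z Z
        (ap (bk fun _ => T) (ap (bk fun s => act G (U s)) (a₁ ⊗ₖ b₁)))).PosSemidef ∧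
      4 * μ * (ap (bk fun s => act G (U s)) C).trace.re -
        2 * μ ^ 2 * ((ap (bk fun s => act G (U s)) (a₀ ⊗ₖ b₀)).trace.re +
          (ap (bk fun s => act G (U s)) (a₁ ⊗ₖ b₁)).trace.re) ≤ Z.trace.re := by
    intro U
    have hch : (Choi (bk fun s => act G (U s))).PosSemidef := choi_bk fun s => choi_act hG _
    have h1 := H897.ap_blocks hch hC
    rw [ap_conjTranspose hch] at h1
    have h2 : (ap (bk fun s => act G (U s)) (a₀ ⊗ₖ b₀)).PosDef := by
      have hcpos : ∀ s : Fin n, 0 < (if U s then G.trace.re * ((Fintype.card (A × B) : ℝ))⁻¹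
          else 1) := by
        intro s
        split_ifs
        · have : 0 < (Fintype.card (A × B) : ℝ) := by exact_mod_cast Fintype.card_pos
          positivity
        · exact one_pos
      have hcp : 0 < ∏ s : Fin n, (if U s then G.trace.re * ((Fintype.card (A × B) : ℝ))⁻¹
          else 1) := Finset.prod_pos fun s _ => hcpos s
      refine posDef_ap hch hcp ?_ (ha₀.kronecker hb₀)
      rw [← bm_one, ap_bk, Complex.ofReal_prod, ← bm_smul]
      congr 1
      funext s
      cases hU : U s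
      · simp only [act, Bool.false_eq_true, if_false, ap_idk, Complex.ofReal_one, one_smul]
      · simp only [act, if_true, ap_ek, Matrix.mul_one]
        congr 1
        push_cast
        congr 1
        refine Complex.ext ?_ ?_
        · rw [Complex.ofReal_re]
        · rw [Complex.ofReal_im]
          exact (Complex.le_def.mp hG.trace_nonneg).2.symm
    obtain ⟨Z, hZ1, hZ2, hZ3⟩ := H405.start hS h2 h1
    exact ⟨Z, hZ1, hZ2, hZ3 μ⟩
  choose Z hZ1 hZ2 hZ3 using step1
  -- the two local maps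
  obtain ⟨P, hP⟩ : ∃ P : (Fin n → Bool) → Matrix (Fin n → A) (Fin n → A) ℂ →
      Matrix (Fin n → A) (Fin n → A) ℂ, P = fun t x =>
        ap (pkd fun s => dep (t s)) (ap (pkd fun _ => tA) x) := ⟨_, rfl⟩
  obtain ⟨Q, hQ⟩ : ∃ Q : (Fin n → Bool) → Matrix (Fin n → B) (Fin n → B) ℂ →
      Matrix (Fin n → B) (Fin n → B) ℂ, Q = fun t x =>
        ap (pkd fun s => dep (t s)) (ap (pkd fun _ => tB) x) := ⟨_, rfl⟩
  have hPpsd : ∀ t {x}, x.PosSemidef → (P t x).PosSemidef := by
    intro t x hx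
    rw [hP]
    exact H897.ap_psd (choi_pkd fun s => choi_dep _) (H897.ap_psd (choi_pkd fun s => hA.choi) hx)
  have hQpsd : ∀ t {x}, x.PosSemidef → (Q t x).PosSemidef := by
    intro t x hx
    rw [hQ]
    exact H897.ap_psd (choi_pkd fun s => choi_dep _) (H897.ap_psd (choi_pkd fun s => hB.choi) hx)
  have hPQ : ∀ t x y, P t x ⊗ₖ Q t y =
      ap (bk fun s => dep (t s)) (ap (bk fun _ => T) (x ⊗ₖ y)) := by
    intro t x y
    rw [← hTn', ap_kt, hP, hQ]
    have h1 : (bk fun s => dep (t s) : Ker ((Fin n → A) × (Fin n → B))) =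
        kt (pkd fun s => dep (t s)) (pkd fun s => dep (t s)) := by
      rw [kt_pkd]
      congr 1
      funext s
      rw [kt_dep]
    rw [h1, ap_kt]
  -- the new corners
  have hdec : ∀ t x y, ∑ U : Fin n → Bool, ap (bk fun s => mk V (t s) (U s))
      (ap (bk fun _ => T) (ap (bk fun s => act G (U s)) (x ⊗ₖ y))) = P t x ⊗ₖ Q t y := by
    intro t x y
    rw [hPQ]
    have h1 : ∀ U : Fin n → Bool, ap (bk fun s => mk V (t s) (U s))
        (ap (bk fun _ => T) (ap (bk fun s => act G (U s)) (x ⊗ₖ y))) =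
        ap (bk fun s => cmp (mk V (t s) (U s)) (act V (U s))) (ap (bk fun _ => T) (x ⊗ₖ y)) := by
      intro U
      have h2 : ap (bk fun _ => T) (ap (bk fun s => act G (U s)) (x ⊗ₖ y)) =
          ap (bk fun s => act V (U s)) (ap (bk fun _ => T) (x ⊗ₖ y)) := by
        rw [← ap_cmp, ← ap_cmp, cmp_bk, cmp_bk]
        congr 2
        funext s
        rw [hGd]
        exact comm_site dT uT V (U s)
      rw [h2, ← ap_cmp, cmp_bk]
    simp only [h1]
    rw [← ap_sum_ker, sum_bk (fun s u => cmp (mk V (t s) u) (act V u))]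
    simp only [key_site]
  obtain ⟨W, hW⟩ : ∃ W : (Fin n → Bool) → Matrix ((Fin n → A) × (Fin n → B))
      ((Fin n → A) × (Fin n → B)) ℂ,
      W = fun t => ∑ U : Fin n → Bool, ap (bk fun s => mk V (t s) (U s)) (Z U) := ⟨_, rfl⟩
  have hchm : ∀ t U : Fin n → Bool, (Choi (bk fun s => mk V (t s) (U s))).PosSemidef :=
    fun t U => choi_bk fun s => choi_mk hV2 _ _
  have hWh : ∀ t, (W t).IsHermitian := by
    intro t
    rw [hW, IsHermitian, conjTranspose_sum]
    refine Finset.sum_congr rfl fun U _ => ?_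
    rw [← ap_conjTranspose (hchm t U), (hZ1 U).eq]
  have hWb : ∀ t, (fromBlocks (P t a₀ ⊗ₖ Q t b₀) (W t) (W t) (P t a₁ ⊗ₖ Q t b₁)).PosSemidef := by
    intro t
    rw [← hdec t a₀ b₀, ← hdec t a₁ b₁, hW, fromBlocks_sum]
    exact posSemidef_sum _ fun U _ => H897.ap_blocks (hchm t U) (hZ2 U)
  have hcore : ∀ t, 2 * (bm (fun s => wt V (t s)) * W t).trace.re ≤
      (bm (fun s => wt V (t s)) * (P t a₀ ⊗ₖ Q t b₁)).trace.re +
        (bm (fun s => wt V (t s)) * (P t a₁ ⊗ₖ Q t b₀)).trace.re := fun t =>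
    Swap.core_lin (hPpsd t ha₁.posSemidef) (hPpsd t ha₀.posSemidef) (hQpsd t hb₁.posSemidef)
      (hQpsd t hb₀.posSemidef) (hWh t) (hWb t) (bm_psd fun s => wt_psd hV _)
  -- the three averages
  have hWsum : ∀ X : Matrix ((Fin n → A) × (Fin n → B)) ((Fin n → A) × (Fin n → B)) ℂ,
      ∑ U : Fin n → Bool, (∏ s, cw (U s)) * (ap (bk fun s => act G (U s)) X).trace.re =
        (tpow n ((2 / 3 : ℂ) • 1 + (1 / 3 : ℂ) • G) * X).trace.re := by
    intro X
    rw [tpow_eq_bm, ← w_site G, ← wsum (fun _ u => dl (act G u) 1)]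
    refine Finset.sum_congr rfl fun U _ => ?_
    rw [← dl_bk, ← trace_mul_ap, bm_one, Matrix.one_mul]
  have hNsum : ∀ x y, ∑ t : Fin n → Bool, (∏ s, cw (t s)) *
      (bm (fun s => wt V (t s)) * (P t x ⊗ₖ Q t y)).trace.re =
        (tpow n ((2 / 3 : ℂ) • 1 + (1 / 3 : ℂ) • G) * (x ⊗ₖ y)).trace.re := by
    intro x y
    rw [tpow_eq_bm, hGd, ← n_site dT uT V, ← wsum (fun _ t => dl (cmp (dep t) T) (wt V t))]
    refine Finset.sum_congr rfl fun t _ => ?_
    rw [hPQ, ← ap_cmp, trace_mul_ap, cmp_bk, dl_bk]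
  have hKsum : ∑ t : Fin n → Bool, (∏ s, cw (t s)) * (bm (fun s => wt V (t s)) * W t).trace.re =
      ∑ U : Fin n → Bool, (∏ s, cw (U s)) * (Z U).trace.re := by
    have h1 : ∀ t : Fin n → Bool, (∏ s, cw (t s)) * (bm (fun s => wt V (t s)) * W t).trace.re =
        ∑ U : Fin n → Bool, (∏ s, cw (t s)) *
          (bm (fun s => dl (mk V (t s) (U s)) (wt V (t s))) * Z U).trace.re := by
      intro t
      rw [hW, Matrix.mul_sum, trace_sum, Complex.re_sum, Finset.mul_sum]
      refine Finset.sum_congr rfl fun U _ => ?_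
      rw [trace_mul_ap, dl_bk]
    simp only [h1]
    rw [Finset.sum_comm]
    refine Finset.sum_congr rfl fun U _ => ?_
    rw [wsum (fun s t => dl (mk V t (U s)) (wt V t))]
    simp only [val_site]
    rw [bm_smul, bm_one, Matrix.smul_mul, Matrix.one_mul, trace_smul, smul_eq_mul,
      ← Complex.ofReal_prod, Complex.re_ofReal_mul]
  have hw0 : ∀ U : Fin n → Bool, 0 ≤ ∏ s, cw (U s) := fun U =>
    Finset.prod_nonneg fun s _ => cw_nonneg _
  have e1 : ∑ U : Fin n → Bool, (∏ s, cw (U s)) *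
      (4 * μ * (ap (bk fun s => act G (U s)) C).trace.re -
        2 * μ ^ 2 * ((ap (bk fun s => act G (U s)) (a₀ ⊗ₖ b₀)).trace.re +
          (ap (bk fun s => act G (U s)) (a₁ ⊗ₖ b₁)).trace.re)) ≤
      ∑ U : Fin n → Bool, (∏ s, cw (U s)) * (Z U).trace.re :=
    Finset.sum_le_sum fun U _ => mul_le_mul_of_nonneg_left (hZ3 U) (hw0 U)
  have e2 : 2 * ∑ t : Fin n → Bool, (∏ s, cw (t s)) *
      (bm (fun s => wt V (t s)) * W t).trace.re ≤
      ∑ t : Fin n → Bool, (∏ s, cw (t s)) *
        (bm (fun s => wt V (t s)) * (P t a₀ ⊗ₖ Q t b₁)).trace.re +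
      ∑ t : Fin n → Bool, (∏ s, cw (t s)) *
        (bm (fun s => wt V (t s)) * (P t a₁ ⊗ₖ Q t b₀)).trace.re := by
    rw [Finset.mul_sum, ← Finset.sum_add_distrib]
    refine Finset.sum_le_sum fun t _ => ?_
    have := mul_le_mul_of_nonneg_left (hcore t) (hw0 t)
    linarith
  rw [hKsum, hNsum, hNsum] at e2
  have e3 : ∑ U : Fin n → Bool, (∏ s, cw (U s)) *
      (4 * μ * (ap (bk fun s => act G (U s)) C).trace.re -
        2 * μ ^ 2 * ((ap (bk fun s => act G (U s)) (a₀ ⊗ₖ b₀)).trace.re +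
          (ap (bk fun s => act G (U s)) (a₁ ⊗ₖ b₁)).trace.re)) =
      4 * μ * ∑ U : Fin n → Bool, (∏ s, cw (U s)) * (ap (bk fun s => act G (U s)) C).trace.re -
        2 * μ ^ 2 * (∑ U : Fin n → Bool, (∏ s, cw (U s)) *
            (ap (bk fun s => act G (U s)) (a₀ ⊗ₖ b₀)).trace.re +
          ∑ U : Fin n → Bool, (∏ s, cw (U s)) *
            (ap (bk fun s => act G (U s)) (a₁ ⊗ₖ b₁)).trace.re) := by
    rw [← Finset.sum_add_distrib, Finset.mul_sum, Finset.mul_sum, ← Finset.sum_sub_distrib]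
    refine Finset.sum_congr rfl fun U _ => ?_
    ring
  rw [e3, hWsum, hWsum, hWsum] at e1
  linarith

end main

end Vale.Agent.P372.H740
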