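import Vale.Agent.P372.H740.Ker

/-!
Product kernels on `(Fin n → A) × (Fin n → B)`.
-/

open Matrix Kronecker
open scoped ComplexOrder MatrixOrder

set_option linter.unusedSectionVars false

namespace Vale.Agent.P372.H740

open H897 (Ker ap kt Choi SF)

section posdef

variable {a : Type} [Fintype a] [DecidableEq a]

theorem posDef_of_block {Y W : Matrix a a ℂ} {c : ℝ} (hc : 0 < c)
    (h2 : (fromBlocks Y ((c : ℂ) • 1) ((c : ℂ) • 1) W).PosSemidef) : Y.PosDef := by
  have h0 : Y.PosSemidef := h2.submatrix Sum.inl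
  refine PosDef.of_dotProduct_mulVec_pos h0.isHermitian fun v hv => ?_
  have h3 := h0.dotProduct_mulVec_nonneg v
  refine lt_of_le_of_ne h3 fun h4 => hv ?_
  have h5 : ∀ t : ℝ, 2 * t * c * (star v ⬝ᵥ v).re ≤ (star v ⬝ᵥ (W *ᵥ v)).re := by
    intro t
    have h6 := (Complex.le_def.mp (h2.dotProduct_mulVec_nonneg (Sum.elim (-(t : ℂ) • v) v))).1
    have h8 : star (Sum.elim (-(t : ℂ) • v) v) = Sum.elim (-(t : ℂ) • star v) (star v) := by
      ext i
      cases i <;> simp
    rw [h8, fromBlocks_mulVec, sumElim_dotProduct_sumElim] at h6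
    simp only [Sum.elim_comp_inl, Sum.elim_comp_inr,
      one_mulVec, smul_mulVec, mulVec_smul, dotProduct_add, dotProduct_smul, smul_dotProduct,
      ← h4, smul_eq_mul, mul_zero, zero_add] at h6
    simp only [Complex.zero_re, Complex.add_re, Complex.mul_re, Complex.neg_re, Complex.neg_im,
      Complex.ofReal_re, Complex.ofReal_im, neg_zero, zero_mul, sub_zero, mul_zero] at h6
    linarith
  have h9 : (star v ⬝ᵥ v).re = 0 := by
    have h10 : 0 ≤ (star v ⬝ᵥ v).re := (Complex.le_def.mp (dotProduct_star_self_nonneg v)).1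
    by_contra hne
    have h11 : 0 < (star v ⬝ᵥ v).re := lt_of_le_of_ne h10 (Ne.symm hne)
    have h12 := h5 (((star v ⬝ᵥ (W *ᵥ v)).re + 1) / (2 * c * (star v ⬝ᵥ v).re))
    rw [show 2 * (((star v ⬝ᵥ (W *ᵥ v)).re + 1) / (2 * c * (star v ⬝ᵥ v).re)) * c *
      (star v ⬝ᵥ v).re = (star v ⬝ᵥ (W *ᵥ v)).re + 1 by field_simp] at h12
    linarith
  have h13 : star v ⬝ᵥ v = 0 := by
    refine Complex.ext h9 ?_
    exact (Complex.le_def.mp (dotProduct_star_self_nonneg v)).2.symm
  exact dotProduct_star_self_eq_zero.mp h13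

/-- A completely positive map which maps the identity to a positive multiple of it preserves
positive definiteness. -/
theorem posDef_ap {k : Ker a} (hk : (Choi k).PosSemidef) {c : ℝ} (hc : 0 < c)
    (h1 : ap k 1 = (c : ℂ) • 1) {X : Matrix a a ℂ} (hX : X.PosDef) : (ap k X).PosDef := by
  have hi : Invertible X := hX.isUnit.invertible
  have h2 : (fromBlocks X 1 (1 : Matrix a a ℂ)ᴴ X⁻¹).PosSemidef := by
    rw [PosDef.fromBlocks₁₁ _ _ hX]
    simpa using PosSemidef.zero
  rw [conjTranspose_one] at h2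
  have h3 := H897.ap_blocks hk h2
  rw [h1] at h3
  exact posDef_of_block hc h3

end posdef

section prod

variable {A B : Type} [Fintype A] [DecidableEq A] [Fintype B] [DecidableEq B] {n : ℕ}

/-- The kernel on `(Fin n → A) × (Fin n → B)` with one kernel for every site. -/
def bk (k : Fin n → Ker (A × B)) : Ker ((Fin n → A) × (Fin n → B)) :=
  fun p q i j => ∏ s, k s (p.1 s, p.2 s) (q.1 s, q.2 s) (i.1 s, i.2 s) (j.1 s, j.2 s)

/-- The matrix with one factor for every site. -/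
def bm (M : Fin n → Matrix (A × B) (A × B) ℂ) :
    Matrix ((Fin n → A) × (Fin n → B)) ((Fin n → A) × (Fin n → B)) ℂ :=
  fun p q => ∏ s, M s (p.1 s, p.2 s) (q.1 s, q.2 s)

/-- The kernel on `Fin n → A` with one kernel for every site. -/
def pkd (k : Fin n → Ker A) : Ker (Fin n → A) := fun p q i j => ∏ s, k s (p s) (q s) (i s) (j s)

theorem sum_om (f : Fin n → A × B → ℂ) :
    ∑ ω : (Fin n → A) × (Fin n → B), ∏ s, f s (ω.1 s, ω.2 s) = ∏ s, ∑ c, f s c := by
  rw [Finset.prod_univ_sum, Fintype.piFinset_univ]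
  exact Fintype.sum_equiv (Equiv.arrowProdEquivProdArrow (Fin n) (fun _ => A) (fun _ => B)).symm
    _ _ (fun ω => rfl)

theorem sum_om2 (f : Fin n → A × B → A × B → ℂ) :
    ∑ ω : (Fin n → A) × (Fin n → B), ∑ ω' : (Fin n → A) × (Fin n → B),
      ∏ s, f s (ω.1 s, ω.2 s) (ω'.1 s, ω'.2 s) = ∏ s, ∑ c, ∑ c', f s c c' := by
  rw [← sum_om (fun s c => ∑ c', f s c c')]
  refine Finset.sum_congr rfl fun ω _ => ?_
  rw [← sum_om (fun s c' => f s (ω.1 s, ω.2 s) c')]

theorem sum_lab {ι : Type} [Fintype ι] (f : Fin n → ι → ℂ) :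
    ∑ t : Fin n → ι, ∏ s, f s (t s) = ∏ s, ∑ i, f s i := by
  classical
  rw [Finset.prod_univ_sum, Fintype.piFinset_univ]

theorem cmp_bk (k l : Fin n → Ker (A × B)) :
    cmp (bk k) (bk l) = bk fun s => cmp (k s) (l s) := by
  funext p q i j
  simp only [cmp, bk, ← Finset.prod_mul_distrib]
  exact sum_om2 (fun s u v => l s (p.1 s, p.2 s) (q.1 s, q.2 s) u v *
    k s u v (i.1 s, i.2 s) (j.1 s, j.2 s))

theorem dl_bk (k : Fin n → Ker (A × B)) (M : Fin n → Matrix (A × B) (A × B) ℂ) :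
    dl (bk k) (bm M) = bm fun s => dl (k s) (M s) := by
  ext q p
  simp only [dl, bk, bm, ← Finset.prod_mul_distrib]
  exact sum_om2 (fun s i j => M s j i * k s (p.1 s, p.2 s) (q.1 s, q.2 s) i j)

theorem ap_bk (k : Fin n → Ker (A × B)) (M : Fin n → Matrix (A × B) (A × B) ℂ) :
    ap (bk k) (bm M) = bm fun s => ap (k s) (M s) := by
  ext i j
  simp only [ap, bk, bm, ← Finset.prod_mul_distrib]
  exact sum_om2 (fun s p q => M s p q * k s p q (i.1 s, i.2 s) (j.1 s, j.2 s))

theorem bm_one : bm (fun _ : Fin n => (1 : Matrix (A × B) (A × B) ℂ)) = 1 := by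
  ext p q
  rw [bm]
  by_cases h : p = q
  · subst h
    simp
  · rw [Matrix.one_apply_ne h]
    obtain ⟨k, hk⟩ : ∃ k, (p.1 k, p.2 k) ≠ (q.1 k, q.2 k) := by
      by_contra hc
      push Not at hc
      refine h (Prod.ext (funext fun k => ?_) (funext fun k => ?_))
      · exact (Prod.ext_iff.mp (hc k)).1
      · exact (Prod.ext_iff.mp (hc k)).2
    exact Finset.prod_eq_zero (Finset.mem_univ k) (Matrix.one_apply_ne hk)

theorem bm_smul (c : Fin n → ℂ) (M : Fin n → Matrix (A × B) (A × B) ℂ) :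
    bm (fun s => c s • M s) = (∏ s, c s) • bm M := by
  ext p q
  simp only [bm, Matrix.smul_apply, smul_eq_mul, Finset.prod_mul_distrib]

theorem sum_bm {ι : Type} [Fintype ι] (M : Fin n → ι → Matrix (A × B) (A × B) ℂ) :
    ∑ t : Fin n → ι, bm (fun s => M s (t s)) = bm fun s => ∑ i, M s i := by
  ext p q
  simp only [Matrix.sum_apply, bm]
  exact sum_lab (fun s i => M s i (p.1 s, p.2 s) (q.1 s, q.2 s))

theorem sum_bk {ι : Type} [Fintype ι] (k : Fin n → ι → Ker (A × B)) :
    ∑ t : Fin n → ι, bk (fun s => k s (t s)) = bk fun s => ∑ i, k s i := by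
  funext p q i j
  simp only [Finset.sum_apply, bk]
  exact sum_lab (fun s x => k s x (p.1 s, p.2 s) (q.1 s, q.2 s) (i.1 s, i.2 s) (j.1 s, j.2 s))

theorem choi_bk {k : Fin n → Ker (A × B)} (h : ∀ s, (Choi (k s)).PosSemidef) :
    (Choi (bk k)).PosSemidef := by
  have h1 := (piT_posSemidef h).submatrix
    (fun u : ((Fin n → A) × (Fin n → B)) × ((Fin n → A) × (Fin n → B)) =>
      fun s => ((u.1.1 s, u.1.2 s), (u.2.1 s, u.2.2 s)))
  exact h1

theorem choi_pkd {k : Fin n → Ker A} (h : ∀ s, (Choi (k s)).PosSemidef) :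
    (Choi (pkd k)).PosSemidef := by
  have h1 := (piT_posSemidef h).submatrix
    (fun u : (Fin n → A) × (Fin n → A) => fun s => (u.1 s, u.2 s))
  exact h1

theorem bm_psd {M : Fin n → Matrix (A × B) (A × B) ℂ} (h : ∀ s, (M s).PosSemidef) :
    (bm M).PosSemidef := by
  have h1 := (piT_posSemidef h).submatrix
    (fun u : (Fin n → A) × (Fin n → B) => fun s => (u.1 s, u.2 s))
  exact h1

theorem kt_pkd (k : Fin n → Ker A) (l : Fin n → Ker B) :
    kt (pkd k) (pkd l) = bk fun s => kt (k s) (l s) := by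
  funext p q i j
  simp only [kt, pkd, bk, Finset.prod_mul_distrib]

theorem tpow_eq_bm (R : Matrix (A × B) (A × B) ℂ) : tpow n R = bm fun _ => R := rfl

end prod

end Vale.Agent.P372.H740
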